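import Vale.Agent.Lib.P007.Obstruction

/-!
# P007: the totally real quartic fields `ℚ(√2, √p)`

They are built as iterated quadratic algebras; they are totally real of degree four, contain `√2`,
are pairwise non-isomorphic, hence have discriminants tending to infinity (Hermite).
-/

open QuadraticAlgebra NumberField

namespace Vale.Agent.Lib.P007

lemma rat_sq_ne_of_squarefree (N : ℕ) (hN : Squarefree N) (h1 : N ≠ 1) (r : ℚ) : r ^ 2 ≠ (N : ℚ) := by
  intro h
  have h2 : IsSquare ((N : ℕ) : ℚ) := ⟨r, by rw [← h]; ring⟩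
  rw [Rat.isSquare_natCast_iff] at h2
  obtain ⟨k, hk⟩ := h2
  have := hN k (by rw [hk])
  rw [Nat.isUnit_iff] at this
  subst this
  simp at hk
  exact h1 hk

instance fact2 : Fact (∀ r : ℚ, r ^ 2 ≠ (2 : ℚ) + 0 * r) :=
  ⟨fun r => by
    have := rat_sq_ne_of_squarefree 2 Nat.prime_two.prime.squarefree (by norm_num) r
    simpa using this⟩

abbrev F2 := QuadraticAlgebra ℚ 2 0

/-- the `i`-th odd prime -/
noncomputable def op (i : ℕ) : ℕ := Nat.nth Nat.Prime (i + 1)

lemma op_prime (i : ℕ) : (op i).Prime := Nat.prime_nth_prime _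

lemma op_gt_two (i : ℕ) : 2 < op i := by
  have h := Nat.nth_strictMono Nat.infinite_setOfPred_prime (Nat.succ_pos i)
  rwa [Nat.nth_prime_zero_eq_two] at h

lemma op_injective : Function.Injective op := fun i j h => by
  have := (Nat.nth_strictMono Nat.infinite_setOfPred_prime).injective h
  omega

lemma sq_eq_algebraMap {R : Type} [Field R] [CharZero R] {a : R} (z : QuadraticAlgebra R a 0) (t : R)
    (h : z ^ 2 = algebraMap R (QuadraticAlgebra R a 0) t) :
    (∃ x : R, x ^ 2 = t) ∨ (∃ y : R, a * y ^ 2 = t) := by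
  have hre := congrArg QuadraticAlgebra.re h
  have him := congrArg QuadraticAlgebra.im h
  simp [pow_two] at hre him
  have h0 : z.re * z.im = 0 := by
    have : 2 * (z.re * z.im) = 0 := by linear_combination him
    simpa using this
  rcases mul_eq_zero.mp h0 with h1 | h1
  · right
    refine ⟨z.im, ?_⟩
    rw [h1] at hre
    linear_combination hre
  · left
    refine ⟨z.re, ?_⟩
    rw [h1] at hre
    linear_combination hre

/-- no element of `ℚ(√2)` squares to a rational `t` unless `t` or `2t` is a rational square -/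
lemma F2_sq (z : F2) (t : ℚ) (h : z ^ 2 = algebraMap ℚ F2 t) :
    (∃ x : ℚ, x ^ 2 = t) ∨ (∃ y : ℚ, y ^ 2 = 2 * t) := by
  rcases sq_eq_algebraMap z t h with ⟨x, hx⟩ | ⟨y, hy⟩
  · exact Or.inl ⟨x, hx⟩
  · exact Or.inr ⟨2 * y, by linear_combination 2 * hy⟩

lemma sqfree_two_mul {p : ℕ} (hp : p.Prime) (h2 : p ≠ 2) : Squarefree (2 * p) := by
  rw [Nat.squarefree_mul ((Nat.coprime_primes Nat.prime_two hp).mpr h2.symm)]
  exact ⟨Nat.prime_two.prime.squarefree, hp.prime.squarefree⟩

lemma F2_sq_ne_prime {p : ℕ} (hp : p.Prime) (h2 : p ≠ 2) (z : F2) : z ^ 2 ≠ (p : F2) := by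
  intro h
  have h' : z ^ 2 = algebraMap ℚ F2 (p : ℚ) := by rw [h, map_natCast]
  rcases F2_sq z _ h' with ⟨x, hx⟩ | ⟨y, hy⟩
  · exact rat_sq_ne_of_squarefree p hp.prime.squarefree hp.one_lt.ne' x hx
  · refine rat_sq_ne_of_squarefree (2 * p) (sqfree_two_mul hp h2) ?_ y (by rw [hy]; push_cast; ring)
    have := hp.one_lt
    omega

instance factp (i : ℕ) : Fact (∀ r : F2, r ^ 2 ≠ ((op i : ℕ) : F2) + 0 * r) :=
  ⟨fun r => by
    have := F2_sq_ne_prime (op_prime i) (op_gt_two i).ne' r
    simpa using this⟩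

/-- the field `ℚ(√2, √p_i)` -/
noncomputable abbrev Kq (i : ℕ) := QuadraticAlgebra F2 ((op i : ℕ) : F2) 0

instance (i : ℕ) : NumberField (Kq i) where
  to_charZero := inferInstance
  to_finiteDimensional := Module.Finite.trans F2 (Kq i)

lemma finrank_Kq (i : ℕ) : Module.finrank ℚ (Kq i) = 4 := by
  rw [← Module.finrank_mul_finrank ℚ F2 (Kq i), QuadraticAlgebra.finrank_eq_two,
    QuadraticAlgebra.finrank_eq_two]

lemma Kq_sq_ne (i j : ℕ) (hij : i ≠ j) (z : Kq i) : z ^ 2 ≠ ((op j : ℕ) : Kq i) := by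
  intro h
  have hp := op_prime i
  have hq := op_prime j
  have hpq : op i ≠ op j := fun h => hij (op_injective h)
  have hp0 : ((op i : ℕ) : ℚ) ≠ 0 := by exact_mod_cast hp.ne_zero
  have h' : z ^ 2 = algebraMap F2 (Kq i) ((op j : ℕ) : F2) := by rw [h, map_natCast]
  rcases sq_eq_algebraMap z _ h' with ⟨x, hx⟩ | ⟨y, hy⟩
  · exact F2_sq_ne_prime hq (op_gt_two j).ne' x hx
  · have hy' : y ^ 2 = algebraMap ℚ F2 ((op j : ℚ) / (op i : ℚ)) := by
      have hp0' : ((op i : ℕ) : F2) ≠ 0 := by exact_mod_cast hp.ne_zero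
      rw [map_div₀, map_natCast, map_natCast, eq_div_iff hp0', ← hy]; ring
    have hcop : (op i).Coprime (op j) := (Nat.coprime_primes hp hq).mpr hpq
    rcases F2_sq y _ hy' with ⟨x, hx⟩ | ⟨w, hw⟩
    · refine rat_sq_ne_of_squarefree (op i * op j) ?_ ?_ ((op i : ℚ) * x) ?_
      · rw [Nat.squarefree_mul hcop]; exact ⟨hp.prime.squarefree, hq.prime.squarefree⟩
      · have := hp.one_lt; have := hq.one_lt; nlinarith
      · rw [mul_pow, hx]; push_cast; field_simp
    · refine rat_sq_ne_of_squarefree (2 * op i * op j) ?_ ?_ ((op i : ℚ) * w) ?_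
      · have hc2 : (2 * op i).Coprime (op j) :=
          Nat.Coprime.mul_left ((Nat.coprime_primes Nat.prime_two hq).mpr (op_gt_two j).ne) hcop
        rw [Nat.squarefree_mul hc2]
        exact ⟨sqfree_two_mul hp (op_gt_two i).ne', hq.prime.squarefree⟩
      · have := hp.one_lt; have := hq.one_lt; nlinarith
      · rw [mul_pow, hw]; push_cast; field_simp

/-- `√2` in `Kq i` -/
noncomputable def s2 (i : ℕ) : Kq i := algebraMap F2 (Kq i) ω

/-- `√p_i` in `Kq i` -/
noncomputable def sp (i : ℕ) : Kq i := ω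

lemma s2_sq (i : ℕ) : s2 i ^ 2 = 2 := by
  have h : (ω : F2) * ω = 2 := by
    ext <;> simp
  rw [s2, pow_two, ← map_mul, h, map_ofNat]

lemma sp_sq (i : ℕ) : sp i ^ 2 = ((op i : ℕ) : Kq i) := by
  rw [sp, pow_two]
  ext <;> simp

lemma Kq_decomp (i : ℕ) (z : Kq i) :
    z = (z.re.re : Kq i) + (z.re.im : Kq i) * s2 i + ((z.im.re : Kq i) + (z.im.im : Kq i) * s2 i) * sp i := by
  ext <;> simp [s2, sp]

lemma star_eq_of_sq (z : ℂ) (r : ℝ) (hr : 0 ≤ r) (h : z ^ 2 = (r : ℂ)) : star z = z := by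
  have h2 : z ^ 2 = ((√r : ℝ) : ℂ) ^ 2 := by
    rw [h, ← Complex.ofReal_pow, Real.sq_sqrt hr]
  rcases sq_eq_sq_iff_eq_or_eq_neg.mp h2 with h3 | h3
  · rw [h3]; exact Complex.conj_ofReal _
  · rw [h3, star_neg]; congr 1; exact Complex.conj_ofReal _

instance (i : ℕ) : IsTotallyReal (Kq i) := by
  rw [← maximalRealSubfield_eq_top_iff_isTotallyReal, eq_top_iff]
  intro z _
  have h2 : s2 i ∈ maximalRealSubfield (Kq i) := by
    intro φ
    apply star_eq_of_sq _ 2 (by norm_num)
    rw [← map_pow, s2_sq, map_ofNat]; simp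
  have hp : sp i ∈ maximalRealSubfield (Kq i) := by
    intro φ
    apply star_eq_of_sq _ (op i : ℝ) (by positivity)
    rw [← map_pow, sp_sq]; simp
  rw [Kq_decomp i z]
  exact add_mem (add_mem (SubfieldClass.ratCast_mem _ _) (mul_mem (SubfieldClass.ratCast_mem _ _) h2))
    (mul_mem (add_mem (SubfieldClass.ratCast_mem _ _) (mul_mem (SubfieldClass.ratCast_mem _ _) h2)) hp)

/-- real and complex embeddings of a totally real field -/
noncomputable def realEquivComplex (K : Type) [Field K] [IsTotallyReal K] : (K →+* ℝ) ≃ (K →+* ℂ) where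
  toFun ψ := Complex.ofRealHom.comp ψ
  invFun φ := (IsTotallyReal.complexEmbedding_isReal φ).embedding
  left_inv ψ := by
    ext x
    apply Complex.ofReal_injective
    rw [ComplexEmbedding.IsReal.coe_embedding_apply]
    rfl
  right_inv φ := by
    ext x
    simp [ComplexEmbedding.IsReal.coe_embedding_apply]

/-- an enumeration of the real embeddings -/
noncomputable def enumEmb (K : Type) [Field K] [NumberField K] [IsTotallyReal K] {n : ℕ}
    (h : Module.finrank ℚ K = n) : Fin n ≃ (K →+* ℝ) :=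
  ((realEquivComplex K).trans
    (Fintype.equivFinOfCardEq ((NumberField.Embeddings.card K ℂ).trans h))).symm

/-- a real embedding of `Kq i` -/
noncomputable def iota (i : ℕ) : Kq i →ₐ[ℚ] ℝ := (enumEmb (Kq i) (finrank_Kq i) 0).toRatAlgHom

/-- its image -/
noncomputable def Eq' (i : ℕ) : IntermediateField ℚ ℝ := (iota i).fieldRange

instance (i : ℕ) : FiniteDimensional ℚ (Eq' i) :=
  (iota i).equivFieldRange.toLinearEquiv.finiteDimensional

instance (i : ℕ) : NumberField (Eq' i) where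
  to_charZero := inferInstance
  to_finiteDimensional := inferInstance

lemma Eq'_injective : Function.Injective Eq' := by
  intro i j h
  by_contra hij
  have h1 : iota j (sp j) ∈ Eq' i := by
    rw [h]; exact ⟨sp j, rfl⟩
  obtain ⟨z, hz⟩ := h1
  apply Kq_sq_ne i j hij z
  have hz' : iota i z = iota j (sp j) := hz
  have hgoal : iota i (z ^ 2) = iota i ((op j : ℕ) : Kq i) := by
    rw [map_pow, hz', ← map_pow, sp_sq, map_natCast, map_natCast]
  exact (iota i).injective hgoal

lemma discr_Kq (i : ℕ) : discr (Kq i) = discr (Eq' i) :=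
  discr_eq_discr_of_algEquiv _ (iota i).equivFieldRange

open Filter in
lemma tendsto_discr : Tendsto (fun i => |discr (Kq i)|) atTop atTop := by
  rw [tendsto_atTop]
  intro b
  have hfin := NumberField.finite_of_discr_bdd ℝ b.toNat
  let e : ℕ → {F : IntermediateField ℚ ℝ // FiniteDimensional ℚ F} := fun i => ⟨Eq' i, inferInstance⟩
  have he : Function.Injective e := fun i j h => Eq'_injective (congrArg Subtype.val h)
  have hfin2 := hfin.preimage (he.injOn (s := e ⁻¹' _))
  have hev := hfin2.eventually_cofinite_notMem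
  rw [Nat.cofinite_eq_atTop] at hev
  filter_upwards [hev] with i hi
  simp only [Set.mem_preimage, Set.mem_ofPred_eq, not_le, e] at hi
  rw [discr_Kq]
  have h1 : b ≤ (b.toNat : ℤ) := Int.self_le_toNat b
  exact le_trans h1 hi.le

lemma s2_integral (i : ℕ) : IsIntegral ℤ (s2 i) := by
  refine ⟨Polynomial.X ^ 2 - Polynomial.C 2, Polynomial.monic_X_pow_sub_C 2 (by norm_num), ?_⟩
  rw [Polynomial.eval₂_sub, Polynomial.eval₂_pow, Polynomial.eval₂_X, Polynomial.eval₂_C, s2_sq,
    map_ofNat, sub_self]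

lemma s2_root (i : ℕ) :
    Polynomial.aeval (s2 i) (Polynomial.X ^ 2 - Polynomial.C 2 : Polynomial ℤ) = 0 := by
  rw [map_sub, map_pow, Polynomial.aeval_X, Polynomial.aeval_C, s2_sq, map_ofNat, sub_self]

lemma s2_irrational (i : ℕ) : s2 i ∉ (algebraMap ℚ (Kq i)).range := by
  rintro ⟨r, hr⟩
  have h : algebraMap ℚ (Kq i) (r ^ 2) = algebraMap ℚ (Kq i) 2 := by
    rw [map_pow, hr, s2_sq, map_ofNat]
  have h2 : r ^ 2 = 2 := (algebraMap ℚ (Kq i)).injective h
  exact rat_sq_ne_of_squarefree 2 Nat.prime_two.prime.squarefree (by norm_num) r (by simpa using h2)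

end Vale.Agent.Lib.P007
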