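import Vale.Agent.Lib.P007.Dickson
import Vale.Agent.Lib.P007.Quartic

/-!
# P007: a totally real field of every degree `a * b` with a subfield of degree `a`

`Kc n = ℚ[x] / (D_{n+1}(x, 2) - 2)`.
-/

open Polynomial NumberField

namespace Vale.Agent.Lib.P007

lemma conj_eq_neg_of_sq_neg (s : ℂ) (r : ℝ) (hr : 0 < r) (h : s ^ 2 = -(r : ℂ)) :
    (starRingEnd ℂ) s = -s := by
  have hre := congrArg Complex.re h
  have him := congrArg Complex.im h
  simp [pow_two] at hre him
  have hx : s.re = 0 := by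
    have h0 : s.re * s.im = 0 := by linarith
    rcases mul_eq_zero.mp h0 with h1 | h1
    · exact h1
    · rw [h1] at hre
      nlinarith [mul_self_nonneg s.re]
  apply Complex.ext <;> simp [hx]

/-- all complex roots of `D_n(x, c) = 2` are real when `c > 1` -/
lemma dickson_root_real (c : ℝ) (hc : 1 < c) (n : ℕ) (hn : 1 ≤ n) (z : ℂ)
    (hz : (dickson 1 (c : ℂ) n).eval z = 2) : (starRingEnd ℂ) z = z := by
  obtain ⟨δ, hδ⟩ := IsAlgClosed.exists_pow_nat_eq (z ^ 2 - 4 * c) (n := 2) (by norm_num)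
  set w : ℂ := (z + δ) / 2 with hw
  set w' : ℂ := (z - δ) / 2 with hw'
  have hsum : w + w' = z := by rw [hw, hw']; ring
  have hprod : w * w' = c := by
    rw [hw, hw']
    linear_combination (-1 / 4 : ℂ) * hδ
  have hD := dickson_eval_add w w' n
  rw [hsum, hprod, hz] at hD
  have hcn : 1 < c ^ n := one_lt_pow₀ hc (by omega)
  have hprodn : w ^ n * w' ^ n = ((c ^ n : ℝ) : ℂ) := by
    rw [← mul_pow, hprod]; push_cast; ring
  have hsq : (w ^ n - 1) ^ 2 = -(((c ^ n - 1 : ℝ)) : ℂ) := by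
    push_cast
    push_cast at hprodn
    linear_combination (-(w ^ n)) * hD - hprodn
  have hconj := conj_eq_neg_of_sq_neg _ _ (by linarith) hsq
  have hconj' : (starRingEnd ℂ) (w ^ n) = w' ^ n := by
    rw [map_sub, map_one] at hconj
    linear_combination hconj + hD
  have hns : Complex.normSq w ^ n = c ^ n := by
    have h1 : ((Complex.normSq (w ^ n) : ℝ) : ℂ) = ((c ^ n : ℝ) : ℂ) := by
      rw [Complex.normSq_eq_conj_mul_self, hconj', mul_comm, hprodn]
    have h2 := Complex.ofReal_injective h1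
    rwa [map_pow] at h2
  have hns' : Complex.normSq w = c :=
    (pow_left_inj₀ (Complex.normSq_nonneg w) (by linarith) (by omega)).mp hns
  have hw0 : w ≠ 0 := by
    intro h0
    rw [h0, map_zero] at hns'
    linarith
  have hcw : (starRingEnd ℂ) w = w' := by
    have h1 : (starRingEnd ℂ) w * w = (c : ℂ) := by
      rw [← Complex.normSq_eq_conj_mul_self, hns']
    apply mul_right_cancel₀ hw0
    rw [h1, ← hprod, mul_comm]
  have hcw' : (starRingEnd ℂ) w' = w := by
    rw [← hcw, Complex.conj_conj]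
  rw [← hsum, map_add, hcw, hcw', add_comm]


lemma exists_sum_prod (z c : ℂ) : ∃ w w' : ℂ, w + w' = z ∧ w * w' = c := by
  obtain ⟨δ, hδ⟩ := IsAlgClosed.exists_pow_nat_eq (z ^ 2 - 4 * c) (n := 2) (by norm_num)
  refine ⟨(z + δ) / 2, (z - δ) / 2, by ring, ?_⟩
  linear_combination (-1 / 4 : ℂ) * hδ

/-- composition law of Dickson polynomials, evaluated in `ℂ` -/
lemma dickson_comp_eval (z c : ℂ) (a b : ℕ) :
    (dickson 1 (c ^ b) a).eval ((dickson 1 c b).eval z) = (dickson 1 c (a * b)).eval z := by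
  obtain ⟨w, w', hs, hp⟩ := exists_sum_prod z c
  rw [← hs, ← hp, dickson_eval_add, dickson_eval_add, mul_pow, dickson_eval_add, ← pow_mul,
    ← pow_mul, mul_comm b a]

/-- evaluation of an integral Dickson polynomial in a ring -/
lemma aeval_dickson {A : Type} [CommRing A] [Algebra ℤ A] (c : ℤ) (n : ℕ) (x : A) :
    aeval x (dickson 1 c n) = (dickson 1 (c : A) n).eval x := by
  rw [aeval_def, eval₂_eq_eval_map, map_dickson]
  simp

lemma map_aeval_int {A B : Type} [CommRing A] [CommRing B] [Algebra ℤ A] [Algebra ℤ B]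
    (φ : A →+* B) (p : ℤ[X]) (x : A) : φ (aeval x p) = aeval (φ x) p := by
  rw [aeval_def, aeval_def, hom_eval₂,
    show φ.comp (algebraMap ℤ A) = algebraMap ℤ B from RingHom.ext_int _ _]

/-- the defining polynomial over `ℚ` -/
noncomputable abbrev fQ (n : ℕ) : ℚ[X] := (dpoly 2 (n + 1)).map (Int.castRingHom ℚ)

instance (n : ℕ) : Fact (Irreducible (fQ n)) :=
  ⟨dpoly_irreducible 2 (dvd_refl 2) (n + 1) (by omega)⟩

lemma fQ_monic (n : ℕ) : (fQ n).Monic := (dpoly_monic 2 (n + 1) (by omega)).map _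

lemma fQ_natDegree (n : ℕ) : (fQ n).natDegree = n + 1 := by
  rw [(dpoly_monic 2 (n + 1) (by omega)).natDegree_map, dpoly_natDegree 2 (n + 1) (by omega)]

/-- the field -/
noncomputable abbrev Kc (n : ℕ) := AdjoinRoot (fQ n)

instance (n : ℕ) : NumberField (Kc n) where
  to_charZero := charZero_of_injective_algebraMap (algebraMap ℚ (Kc n)).injective
  to_finiteDimensional := (AdjoinRoot.powerBasis (fQ_monic n).ne_zero).finite

lemma finrank_Kc (n : ℕ) : Module.finrank ℚ (Kc n) = n + 1 := by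
  rw [(AdjoinRoot.powerBasis (fQ_monic n).ne_zero).finrank, AdjoinRoot.powerBasis_dim,
    fQ_natDegree]

/-- the generator -/
noncomputable def βc (n : ℕ) : Kc n := AdjoinRoot.root (fQ n)

lemma βc_root (n : ℕ) : aeval (βc n) (dickson 1 (2 : ℤ) (n + 1)) = 2 := by
  have h := AdjoinRoot.eval₂_root (fQ n)
  rw [eval₂_map] at h
  have h2 : aeval (βc n) (dpoly 2 (n + 1)) = 0 := by
    rw [aeval_def, show algebraMap ℤ (Kc n) = (AdjoinRoot.of (fQ n)).comp (Int.castRingHom ℚ) from
      RingHom.ext_int _ _]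
    exact h
  rw [dpoly, map_sub, aeval_C] at h2
  rw [sub_eq_zero.mp h2]; simp

lemma βc_integral (n : ℕ) : IsIntegral ℤ (βc n) := by
  refine ⟨dpoly 2 (n + 1), dpoly_monic 2 (n + 1) (by omega), ?_⟩
  rw [← aeval_def, dpoly, map_sub, aeval_C, βc_root]; simp

lemma emb_βc (n : ℕ) (φ : Kc n →+* ℂ) : (dickson 1 (2 : ℂ) (n + 1)).eval (φ (βc n)) = 2 := by
  have h := congrArg φ (βc_root n)
  rw [map_aeval_int, aeval_dickson, map_ofNat] at h
  simpa using h

instance (n : ℕ) : IsTotallyReal (Kc n) := by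
  rw [← maximalRealSubfield_eq_top_iff_isTotallyReal, eq_top_iff]
  intro z _
  have hβ : βc n ∈ maximalRealSubfield (Kc n) := by
    intro φ
    have := dickson_root_real 2 (by norm_num) (n + 1) (by omega) (φ (βc n))
      (by simpa using emb_βc n φ)
    exact this
  obtain ⟨p, rfl⟩ := AdjoinRoot.mk_surjective z
  rw [← AdjoinRoot.aeval_eq, aeval_eq_sum_range]
  refine sum_mem fun i _ => ?_
  rw [Algebra.smul_def, eq_ratCast]
  exact mul_mem (SubfieldClass.ratCast_mem _ _) (pow_mem hβ i)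

section
variable (a b : ℕ)

/-- the element generating the subfield of degree `a` -/
noncomputable def αc : Kc (a * b - 1) := aeval (βc (a * b - 1)) (dickson 1 (2 : ℤ) b)

lemma αc_integral : IsIntegral ℤ (αc a b) := by
  have h := Subalgebra.aeval_coe (integralClosure ℤ (Kc (a * b - 1)))
    ⟨βc (a * b - 1), βc_integral _⟩ (dickson 1 (2 : ℤ) b)
  have h2 : αc a b ∈ integralClosure ℤ (Kc (a * b - 1)) := by
    rw [αc]
    simp only at h
    rw [h]
    exact SetLike.coe_mem _
  exact h2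

variable {a b}

lemma αc_root (ha : 1 ≤ a) (hb : 1 ≤ b) : aeval (αc a b) (dpoly ((2 : ℤ) ^ b) a) = 0 := by
  obtain ⟨φ⟩ : Nonempty (Kc (a * b - 1) →+* ℂ) := inferInstance
  apply φ.injective
  have hN : a * b - 1 + 1 = a * b := Nat.sub_add_cancel (Nat.mul_pos ha hb)
  have h1 := emb_βc (a * b - 1) φ
  rw [hN] at h1
  rw [map_zero, map_aeval_int, dpoly, map_sub, aeval_C, aeval_dickson, αc, map_aeval_int,
    aeval_dickson]
  have h2 := dickson_comp_eval (φ (βc (a * b - 1))) 2 a b
  push_cast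
  rw [h2, h1]
  simp

lemma αc_irrational (ha : 2 ≤ a) (hb : 1 ≤ b) :
    αc a b ∉ (algebraMap ℚ (Kc (a * b - 1))).range := by
  rintro ⟨r, hr⟩
  have hirr := dpoly_irreducible ((2 : ℤ) ^ b) (dvd_pow_self 2 (by omega)) a (by omega)
  have hroot : ((dpoly ((2 : ℤ) ^ b) a).map (Int.castRingHom ℚ)).IsRoot r := by
    rw [IsRoot.def]
    apply (algebraMap ℚ (Kc (a * b - 1))).injective
    have h := αc_root (a := a) (b := b) (by omega) hb
    rw [← hr, aeval_def] at h
    rw [map_zero, eval_map, hom_eval₂,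
      show (algebraMap ℚ (Kc (a * b - 1))).comp (Int.castRingHom ℚ) = algebraMap ℤ _ from
        RingHom.ext_int _ _]
    exact h
  have hdeg := degree_eq_one_of_irreducible_of_root hirr hroot
  have hm := dpoly_monic ((2 : ℤ) ^ b) a (by omega)
  have hnd : ((dpoly ((2 : ℤ) ^ b) a).map (Int.castRingHom ℚ)).natDegree = a := by
    rw [hm.natDegree_map, dpoly_natDegree _ a (by omega)]
  have h3 : ((dpoly ((2 : ℤ) ^ b) a).map (Int.castRingHom ℚ)).natDegree = 1 :=
    natDegree_eq_of_degree_eq_some hdeg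
  omega

lemma adjoin_αc_ne_top (ha : 1 ≤ a) (hb : 2 ≤ b) :
    IntermediateField.adjoin ℚ {αc a b} ≠ ⊤ := by
  intro htop
  have hN : a * b - 1 + 1 = a * b := Nat.sub_add_cancel (Nat.mul_pos ha (by omega))
  have hint : IsIntegral ℚ (αc a b) := (αc_integral a b).tower_top
  have h1 := IntermediateField.adjoin.finrank hint
  rw [htop, IntermediateField.finrank_top', finrank_Kc, hN] at h1
  have hm := dpoly_monic ((2 : ℤ) ^ b) a ha
  have hle : (minpoly ℚ (αc a b)).natDegree ≤ a := by
    have hroot : aeval (αc a b) ((dpoly ((2 : ℤ) ^ b) a).map (Int.castRingHom ℚ)) = 0 := by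
      have h := αc_root (a := a) (b := b) ha (by omega)
      rw [aeval_def] at h ⊢
      rw [eval₂_map,
        show (algebraMap ℚ (Kc (a * b - 1))).comp (Int.castRingHom ℚ) = algebraMap ℤ _ from
          RingHom.ext_int _ _]
      exact h
    have h2 := natDegree_le_natDegree (minpoly.min ℚ (αc a b) (hm.map _) hroot)
    rwa [hm.natDegree_map, dpoly_natDegree _ a ha] at h2
  have : a * 2 ≤ a * b := Nat.mul_le_mul_left a hb
  omega

end

end Vale.Agent.Lib.P007
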