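import Mathlib

/-!
# P007: definitions (space of lattices, orders, ideals, torus packets, weak convergence)

Conventions.  The problem uses `SL_n(ℤ)\SL_n(ℝ)`, row vectors and the right action.  We use the
transposed (equivalent) model `SL_n(ℝ)/SL_n(ℤ)`: the coset `g SL_n(ℤ)` stands for the lattice
`g ℤⁿ` of column vectors and `SL_n(ℝ)` acts on the left.
-/

open MeasureTheory Filter Topology

namespace Vale.Agent.Lib.P007

/-- `SL_n(ℝ)`. -/
abbrev SLR (n : ℕ) := Matrix.SpecialLinearGroup (Fin n) ℝ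

/-- `SL_n(ℤ)` as a subgroup of `SL_n(ℝ)`. -/
def SLZ (n : ℕ) : Subgroup (SLR n) := (Matrix.SpecialLinearGroup.map (Int.castRingHom ℝ)).range

/-- The space `X_n` of covolume-one lattices in `ℝⁿ`, as `SL_n(ℝ)/SL_n(ℤ)`. -/
abbrev LatticeSpace (n : ℕ) := SLR n ⧸ SLZ n

/-- The lattice `g ℤⁿ` attached to `g`. -/
def latticeOf {n : ℕ} (g : SLR n) : Set (Fin n → ℝ) :=
  Set.range fun z : Fin n → ℤ => g.1.mulVec fun j => (z j : ℝ)

variable {K : Type} [Field K]

/-- An order of `K`: a subring consisting of algebraic integers which spans `K` over `ℚ`. -/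
structure IsOrder [CharZero K] (O : Subring K) : Prop where
  integral : ∀ x ∈ O, IsIntegral ℤ x
  span : Submodule.span ℚ (O : Set K) = ⊤

/-- A fractional `O`-ideal: a nonzero finitely generated subgroup of `K` stable under `O`. -/
structure IsFractionalIdeal (O : Subring K) (I : AddSubgroup K) : Prop where
  fg : I.FG
  ne_bot : I ≠ ⊥
  mul_mem : ∀ a ∈ O, ∀ x ∈ I, a * x ∈ I

/-- `I` is proper: its multiplier ring `{α : α I ⊆ I}` is exactly `O`. -/
def IsProperIdeal (O : Subring K) (I : AddSubgroup K) : Prop :=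
  ∀ α : K, (∀ x ∈ I, α * x ∈ I) ↔ α ∈ O

/-- `I` is invertible: `I J = O` for some fractional `O`-ideal `J`. -/
def IsInvertibleIdeal (O : Subring K) (I : AddSubgroup K) : Prop :=
  ∃ J : AddSubgroup K, IsFractionalIdeal O J ∧
    AddSubgroup.closure {z : K | ∃ x ∈ I, ∃ y ∈ J, z = x * y} = O.toAddSubgroup

/-- The union of the orbits of the packet of `(O, σ)`: all points `g SL_n(ℤ)` whose lattice is
`a w c σ(I)` with `I` a proper invertible fractional `O`-ideal, `c > 0` the normalising scalar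
(forced to be `covol(σ(I))^(-1/n)` because `det g = 1`), `w` a diagonal sign matrix and
`a = diag(exp u_j)`, `∑ u_j = 0`. -/
def packetSet {n : ℕ} (O : Subring K) (σ : Fin n ≃ (K →+* ℝ)) : Set (LatticeSpace n) :=
  {x | ∃ (I : AddSubgroup K) (c : ℝ) (w u : Fin n → ℝ) (g : SLR n),
      IsFractionalIdeal O I ∧ IsProperIdeal O I ∧ IsInvertibleIdeal O I ∧
      0 < c ∧ (∀ j, w j = 1 ∨ w j = -1) ∧ ∑ j, u j = 0 ∧
      x = (g : LatticeSpace n) ∧
      latticeOf g = {v | ∃ α ∈ I, ∀ j, v j = Real.exp (u j) * (w j * (c * σ j α))}}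

/-- Weak convergence in the sense of the problem: convergence of integrals of continuous compactly
supported functions, and no escape of mass. -/
def ConvergesWeakly {Y : Type} [TopologicalSpace Y] [MeasurableSpace Y]
    (μ : ℕ → Measure Y) (m : Measure Y) : Prop :=
  (∀ f : Y → ℝ, Continuous f → HasCompactSupport f →
    Tendsto (fun i => ∫ x, f x ∂(μ i)) atTop (𝓝 (∫ x, f x ∂m))) ∧
  ∀ ε : ℝ, 0 < ε → ∃ Q : Set Y, IsCompact Q ∧ ∀ᶠ i in atTop, 1 - ε ≤ (μ i Q).toReal

end Vale.Agent.Lib.P007
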