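import Mathlib

/-!
# P007: Dickson polynomials `D_n(x, c)`; the polynomials `D_n(x, c) - 2` with `c` even

`D_n(x + y, x y) = x ^ n + y ^ n`.  For even `c`, `D_n(x, c) - 2` is monic and Eisenstein at two.
-/

open Polynomial

namespace Vale.Agent.Lib.P007

theorem dickson_eval_add {R : Type} [CommRing R] (x y : R) :
    ∀ n, (dickson 1 (x * y) n).eval (x + y) = x ^ n + y ^ n
  | 0 => by
    simp only [pow_zero, dickson_zero]; norm_num
  | 1 => by simp only [eval_X, dickson_one, pow_one]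
  | n + 2 => by
    simp only [eval_sub, eval_mul, dickson_eval_add x y _, eval_X, dickson_add_two, eval_C]
    ring

theorem dickson_monic_natDegree {R : Type} [CommRing R] [Nontrivial R] (c : R) :
    ∀ n, (dickson 1 c (n + 1)).Monic ∧ (dickson 1 c (n + 1)).natDegree = n + 1 ∧
      (dickson 1 c n).natDegree ≤ n
  | 0 => by
    refine ⟨by simp, by simp, ?_⟩
    simp only [dickson_zero]
    have : (3 - ((1 : ℕ) : R[X])) = C 2 := by
      rw [Nat.cast_one]
      have : (C 2 : R[X]) = 2 := rfl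
      rw [this]; ring
    rw [this]; simp
  | n + 1 => by
    obtain ⟨hm, hd, hle⟩ := dickson_monic_natDegree c n
    have hXm : (X * dickson 1 c (n + 1)).Monic := monic_X.mul hm
    have hXd : (X * dickson 1 c (n + 1)).natDegree = n + 2 := by
      rw [monic_X.natDegree_mul hm, hd, natDegree_X]; ring
    have hlt : (C c * dickson 1 c n).natDegree < (X * dickson 1 c (n + 1)).natDegree := by
      rw [hXd]
      have := natDegree_C_mul_le c (dickson 1 c n)
      omega
    refine ⟨?_, ?_, hd.le⟩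
    · rw [dickson_add_two]
      exact hXm.sub_of_left (degree_lt_degree hlt)
    · rw [dickson_add_two, natDegree_sub_eq_left_of_natDegree_lt hlt, hXd]

theorem dickson_one_zero {R : Type} [CommRing R] : ∀ n, dickson 1 (0 : R) (n + 1) = X ^ (n + 1)
  | 0 => by simp
  | n + 1 => by
    rw [dickson_add_two, dickson_one_zero n]
    simp [pow_succ, mul_comm]

/-- constant coefficients -/
theorem four_dvd_dickson_coeff_zero (c : ℤ) (hc : 2 ∣ c) :
    ∀ n, 4 ∣ (dickson 1 c (n + 1)).coeff 0 ∧ 2 ∣ (dickson 1 c n).coeff 0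
  | 0 => by
    refine ⟨by simp, ?_⟩
    simp only [dickson_zero]
    have : (3 - ((1 : ℕ) : ℤ[X])) = C 2 := by
      rw [Nat.cast_one]
      have : (C 2 : ℤ[X]) = 2 := rfl
      rw [this]; ring
    rw [this]; simp
  | n + 1 => by
    obtain ⟨h4, h2⟩ := four_dvd_dickson_coeff_zero c hc n
    refine ⟨?_, Dvd.dvd.trans (by norm_num) h4⟩
    rw [dickson_add_two, coeff_sub, coeff_C_mul, mul_comm X, coeff_mul_X_zero, zero_sub, dvd_neg]
    obtain ⟨c', rfl⟩ := hc
    obtain ⟨e, he⟩ := h2
    rw [he]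
    exact ⟨c' * e, by ring⟩

/-- the polynomial `D_n(x, c) - 2` -/
noncomputable def dpoly (c : ℤ) (n : ℕ) : ℤ[X] := dickson 1 c n - C 2

lemma dpoly_monic (c : ℤ) (n : ℕ) (hn : 1 ≤ n) : (dpoly c n).Monic := by
  obtain ⟨k, rfl⟩ : ∃ k, n = k + 1 := ⟨n - 1, by omega⟩
  obtain ⟨hm, hd, -⟩ := dickson_monic_natDegree c k
  apply hm.sub_of_left
  rw [degree_eq_natDegree hm.ne_zero, hd]
  exact lt_of_le_of_lt degree_C_le (by exact_mod_cast Nat.succ_pos k)

lemma dpoly_natDegree (c : ℤ) (n : ℕ) (hn : 1 ≤ n) : (dpoly c n).natDegree = n := by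
  obtain ⟨k, rfl⟩ : ∃ k, n = k + 1 := ⟨n - 1, by omega⟩
  obtain ⟨hm, hd, -⟩ := dickson_monic_natDegree c k
  rw [dpoly, natDegree_sub_C, hd]

lemma dpoly_eisenstein (c : ℤ) (hc : 2 ∣ c) (n : ℕ) (hn : 1 ≤ n) :
    (dpoly c n).IsEisensteinAt (Ideal.span {(2 : ℤ)}) := by
  obtain ⟨k, rfl⟩ : ∃ k, n = k + 1 := ⟨n - 1, by omega⟩
  have hprime : (Ideal.span {(2 : ℤ)}).IsPrime :=
    (Ideal.span_singleton_prime (by norm_num)).mpr Int.prime_two
  refine (dpoly_monic c _ hn).isEisensteinAt_of_mem_of_notMem hprime.ne_top ?_ ?_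
  · intro j hj
    rw [dpoly_natDegree c _ hn] at hj
    rw [Ideal.mem_span_singleton, dpoly, coeff_sub]
    apply dvd_sub
    · have hiff := ZMod.intCast_zmod_eq_zero_iff_dvd ((dickson 1 c (k + 1)).coeff j) 2
      have hgoal : (((dickson 1 c (k + 1)).coeff j : ℤ) : ZMod 2) = 0 := by
        have h1 : ((dickson 1 c (k + 1)).map (Int.castRingHom (ZMod 2))).coeff j
            = (((dickson 1 c (k + 1)).coeff j : ℤ) : ZMod 2) := by
          rw [coeff_map]; rfl
        rw [← h1, map_dickson]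
        have h2 : (Int.castRingHom (ZMod 2)) c = 0 := by
          rw [eq_intCast, ZMod.intCast_zmod_eq_zero_iff_dvd]; exact_mod_cast hc
        rw [h2, dickson_one_zero, coeff_X_pow, if_neg hj.ne]
      exact_mod_cast hiff.mp hgoal
    · rw [coeff_C]
      split_ifs <;> simp
  · rw [Ideal.span_singleton_pow, Ideal.mem_span_singleton, dpoly, coeff_sub, coeff_C_zero]
    intro h
    have h4 := (four_dvd_dickson_coeff_zero c hc k).1
    norm_num at h
    omega

lemma dpoly_irreducible (c : ℤ) (hc : 2 ∣ c) (n : ℕ) (hn : 1 ≤ n) :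
    Irreducible ((dpoly c n).map (Int.castRingHom ℚ)) := by
  have hprime : (Ideal.span {(2 : ℤ)}).IsPrime :=
    (Ideal.span_singleton_prime (by norm_num)).mpr Int.prime_two
  have h := (dpoly_eisenstein c hc n hn).irreducible hprime (dpoly_monic c n hn).isPrimitive
    (by rw [dpoly_natDegree c n hn]; exact hn)
  exact (IsPrimitive.Int.irreducible_iff_irreducible_map_cast (dpoly_monic c n hn).isPrimitive).mp h

end Vale.Agent.Lib.P007
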