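import Vale.Agent.Lib.P007.Quartic

/-!
# P007: the packet of an order is not empty

The order itself is a proper invertible ideal; a `ℤ`-basis of it gives a point of the packet.
-/

open NumberField Filter

namespace Vale.Agent.Lib.P007

variable {K : Type} [Field K] [NumberField K]

lemma order_basis (O : Subring K) (hO : IsOrder O) :
    ∃ ω : Fin (Module.finrank ℚ K) → K, Submodule.span ℚ (Set.range ω) = ⊤ ∧
      (∀ x, x ∈ O ↔ ∃ z : Fin (Module.finrank ℚ K) → ℤ, x = ∑ j, (z j : K) * ω j) := by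
  set M : Submodule ℤ K := AddSubgroup.toIntSubmodule O.toAddSubgroup with hM
  have hmem : ∀ x, x ∈ M ↔ x ∈ O := fun x => Iff.rfl
  have hle : M ≤ (integralClosure ℤ K).toSubmodule := fun x hx => hO.integral x hx
  have h1 : Module.Finite ℤ (integralClosure ℤ K).toSubmodule :=
    inferInstanceAs (Module.Finite ℤ (𝓞 K))
  have hfg : M.FG := Submodule.FG.of_le (Module.Finite.iff_fg.mp h1) hle
  have : Module.Finite ℤ M := Module.Finite.iff_fg.mpr hfg
  obtain ⟨k, b⟩ := Module.basisOfFiniteTypeTorsionFree' (R := ℤ) (M := M)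
  set ω : Fin k → K := fun j => (b j : K) with hω
  have hrepr : ∀ x, x ∈ O ↔ ∃ z : Fin k → ℤ, x = ∑ j, (z j : K) * ω j := by
    intro x
    constructor
    · intro hx
      refine ⟨fun j => b.repr ⟨x, hx⟩ j, ?_⟩
      have h := congrArg (Subtype.val) (b.sum_repr ⟨x, hx⟩)
      simp only [Submodule.coe_sum, Submodule.coe_smul, zsmul_eq_mul] at h
      exact h.symm
    · rintro ⟨z, rfl⟩
      refine sum_mem fun j _ => ?_
      exact mul_mem (intCast_mem O (z j)) (b j).2
  have hli : LinearIndependent ℚ ω := by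
    rw [← LinearIndependent.iff_fractionRing ℤ ℚ]
    exact b.linearIndependent.map' M.subtype (Submodule.ker_subtype M)
  have hsp : Submodule.span ℚ (Set.range ω) = ⊤ := by
    rw [eq_top_iff, ← hO.span, Submodule.span_le]
    intro x hx
    obtain ⟨z, rfl⟩ := (hrepr x).mp hx
    refine sum_mem fun j _ => ?_
    have : (z j : K) * ω j = (z j : ℚ) • ω j := by
      rw [Algebra.smul_def, map_intCast]
    rw [this]
    exact Submodule.smul_mem _ _ (Submodule.subset_span ⟨j, rfl⟩)
  have hk : Module.finrank ℚ K = k := by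
    rw [Module.finrank_eq_card_basis (Module.Basis.mk hli hsp.ge), Fintype.card_fin]
  subst hk
  exact ⟨ω, hsp, hrepr⟩

lemma det_embeddings_ne_zero [IsTotallyReal K] {n : ℕ} (σ : Fin n ≃ (K →+* ℝ)) (ω : Fin n → K)
    (hsp : Submodule.span ℚ (Set.range ω) = ⊤) :
    (Matrix.of fun j k => σ j (ω k) : Matrix (Fin n) (Fin n) ℝ).det ≠ 0 := by
  intro hdet
  obtain ⟨c, hc0, hc⟩ := Matrix.exists_vecMul_eq_zero_iff.mpr hdet
  have hvan : ∀ x : K, ∑ j, c j * σ j x = 0 := by
    intro x
    have hx : x ∈ Submodule.span ℚ (Set.range ω) := by rw [hsp]; trivial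
    induction hx using Submodule.span_induction with
    | mem y hy =>
      obtain ⟨k, rfl⟩ := hy
      have := congrFun hc k
      simpa [Matrix.vecMul, dotProduct] using this
    | zero => simp
    | add y z _ _ hy hz =>
      simp only [map_add, mul_add, Finset.sum_add_distrib, hy, hz, add_zero]
    | smul q y _ hy =>
      have : ∀ j, c j * σ j (q • y) = (q : ℝ) * (c j * σ j y) := by
        intro j
        rw [Algebra.smul_def, map_mul, eq_ratCast, map_ratCast]; ring
      simp only [this, ← Finset.mul_sum, hy, mul_zero]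
  have hli := linearIndependent_monoidHom K ℝ
  have hinj : Function.Injective (fun j : Fin n => ((σ j : K →+* ℝ) : K →* ℝ)) := by
    intro i j hij
    apply σ.injective
    ext x
    exact congrArg (fun f : K →* ℝ => f x) hij
  have hli2 := hli.comp _ hinj
  rw [Fintype.linearIndependent_iff] at hli2
  apply hc0
  ext j
  refine hli2 c ?_ j
  ext x
  simpa using hvan x

lemma card_embeddings [IsTotallyReal K] {n : ℕ} (σ : Fin n ≃ (K →+* ℝ)) :
    Module.finrank ℚ K = n := by
  have h1 := Fintype.card_congr (σ.trans (realEquivComplex K))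
  rw [Fintype.card_fin, NumberField.Embeddings.card K ℂ] at h1
  exact h1.symm

lemma order_fg (O : Subring K) (hO : IsOrder O) : O.toAddSubgroup.FG := by
  have hle : AddSubgroup.toIntSubmodule O.toAddSubgroup ≤ (integralClosure ℤ K).toSubmodule :=
    fun x hx => hO.integral x hx
  have h1 : Module.Finite ℤ (integralClosure ℤ K).toSubmodule :=
    inferInstanceAs (Module.Finite ℤ (𝓞 K))
  have hfg := Submodule.FG.of_le (Module.Finite.iff_fg.mp h1) hle
  exact (Submodule.fg_iff_addSubgroup_fg _).mp hfg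

theorem packetSet_nonempty [IsTotallyReal K] {n : ℕ} (O : Subring K) (hO : IsOrder O)
    (σ : Fin n ≃ (K →+* ℝ)) : (packetSet O σ).Nonempty := by
  have hn := card_embeddings σ
  obtain ⟨ω, hsp, hrepr⟩ : ∃ ω : Fin n → K, Submodule.span ℚ (Set.range ω) = ⊤ ∧
      (∀ x, x ∈ O ↔ ∃ z : Fin n → ℤ, x = ∑ j, (z j : K) * ω j) := by
    subst hn
    exact order_basis O hO
  have hnpos : 0 < n := by rw [← hn]; exact Module.finrank_pos
  set Mx : Matrix (Fin n) (Fin n) ℝ := Matrix.of fun j k => σ j (ω k) with hMx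
  have hdet : Mx.det ≠ 0 := det_embeddings_ne_zero σ ω hsp
  set c : ℝ := (|Mx.det|⁻¹) ^ ((n : ℝ)⁻¹) with hc
  have habs : 0 < |Mx.det| := abs_pos.mpr hdet
  have hcpos : 0 < c := Real.rpow_pos_of_pos (inv_pos.mpr habs) _
  have hcn : c ^ n = |Mx.det|⁻¹ := Real.rpow_inv_natCast_pow (inv_pos.mpr habs).le hnpos.ne'
  let j0 : Fin n := ⟨0, hnpos⟩
  set s : ℝ := if 0 < Mx.det then 1 else -1 with hs
  have hs1 : s = 1 ∨ s = -1 := by
    rw [hs]; split_ifs <;> simp
  have hsdet : s * Mx.det = |Mx.det| := by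
    rw [hs]
    split_ifs with h
    · rw [abs_of_pos h, one_mul]
    · rw [abs_of_neg (lt_of_le_of_ne (not_lt.mp h) hdet)]; ring
  set w : Fin n → ℝ := fun j => if j = j0 then s else 1 with hw
  have hw1 : ∀ j, w j = 1 ∨ w j = -1 := by
    intro j
    simp only [hw]
    split_ifs
    · exact hs1
    · exact Or.inl rfl
  have hwprod : ∏ j, w j = s := by
    simp only [hw]
    rw [Finset.prod_ite_eq' Finset.univ j0 (fun _ => s)]
    simp
  set G : Matrix (Fin n) (Fin n) ℝ := Matrix.diagonal (fun j => w j * c) * Mx with hG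
  have hGdet : G.det = 1 := by
    rw [hG, Matrix.det_mul, Matrix.det_diagonal, Finset.prod_mul_distrib, hwprod,
      Finset.prod_const, Finset.card_univ, Fintype.card_fin, hcn]
    rw [mul_right_comm, hsdet]
    exact mul_inv_cancel₀ habs.ne'
  let g : SLR n := ⟨G, hGdet⟩
  refine ⟨(g : LatticeSpace n), O.toAddSubgroup, c, w, 0, g, ⟨order_fg O hO, ?_, ?_⟩, ?_, ?_, hcpos,
    hw1, by simp, rfl, ?_⟩
  · intro h
    have h1 : (1 : K) ∈ O.toAddSubgroup := O.one_mem
    rw [h, AddSubgroup.mem_bot] at h1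
    exact one_ne_zero h1
  · intro a ha x hx
    exact O.mul_mem ha hx
  · intro α
    constructor
    · intro h
      have := h 1 O.one_mem
      rwa [mul_one] at this
    · intro h x hx
      exact O.mul_mem h hx
  · refine ⟨O.toAddSubgroup, ⟨order_fg O hO, ?_, fun a ha x hx => O.mul_mem ha hx⟩, ?_⟩
    · intro h
      have h1 : (1 : K) ∈ O.toAddSubgroup := O.one_mem
      rw [h, AddSubgroup.mem_bot] at h1
      exact one_ne_zero h1
    · apply le_antisymm
      · rw [AddSubgroup.closure_le]
        rintro _ ⟨x, hx, y, hy, rfl⟩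
        exact O.mul_mem hx hy
      · intro x hx
        exact AddSubgroup.subset_closure ⟨x, hx, 1, O.one_mem, (mul_one x).symm⟩
  · have hkey : ∀ (z : Fin n → ℤ) (j : Fin n), (G.mulVec fun k => (z k : ℝ)) j
        = Real.exp 0 * (w j * (c * σ j (∑ k, (z k : K) * ω k))) := by
      intro z j
      rw [hG, ← Matrix.mulVec_mulVec, Matrix.mulVec_diagonal, Real.exp_zero, one_mul, map_sum,
        mul_assoc]
      congr 2
      simp only [Matrix.mulVec, dotProduct, hMx, Matrix.of_apply, map_mul, map_intCast]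
      exact Finset.sum_congr rfl fun k _ => mul_comm _ _
    ext v
    constructor
    · rintro ⟨z, rfl⟩
      exact ⟨∑ k, (z k : K) * ω k, (hrepr _).mpr ⟨z, rfl⟩, fun j => hkey z j⟩
    · rintro ⟨α, hα, hv⟩
      obtain ⟨z, rfl⟩ := (hrepr α).mp hα
      refine ⟨z, ?_⟩
      ext j
      rw [hv j]
      exact hkey z j

end Vale.Agent.Lib.P007
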