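import Vale.Agent.Lib.P007.Defs

/-!
# P007: the subfield obstruction

Lattices stable under a fixed non-scalar diagonal matrix form a closed null subset of the space of
lattices; torus packets of orders containing a fixed irrational algebraic integer live there.
-/

open Matrix MeasureTheory Topology Filter NumberField
open scoped Pointwise

namespace Vale.Agent.Lib.P007

instance (n : ℕ) : IsClosed (SLZ n : Set (SLR n)) := by
  have h : IsClosedEmbedding (Int.castRingHom ℝ) := Int.isClosedEmbedding_coe_real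
  have := (h.specialLinearGroup_map (n := Fin n)).isClosed_range
  simpa [SLZ] using this

instance (n : ℕ) : LocallyCompactSpace (SLR n) :=
  haveI : LocallyCompactSpace (Matrix (Fin n) (Fin n) ℝ) :=
    inferInstanceAs (LocallyCompactSpace (Fin n → Fin n → ℝ))
  Matrix.SpecialLinearGroup.isClosedEmbedding_val.locallyCompactSpace

instance (n : ℕ) : SecondCountableTopology (SLR n) :=
  haveI : SecondCountableTopology (Matrix (Fin n) (Fin n) ℝ) :=
    inferInstanceAs (SecondCountableTopology (Fin n → Fin n → ℝ))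
  Matrix.SpecialLinearGroup.isClosedEmbedding_val.isEmbedding.secondCountableTopology

variable {n : ℕ}

/-- integral matrices as a subring of real matrices -/
def IntMat (n : ℕ) : Subring (Matrix (Fin n) (Fin n) ℝ) := (Int.castRingHom ℝ).mapMatrix.range

lemma mem_IntMat_iff (M : Matrix (Fin n) (Fin n) ℝ) :
    M ∈ IntMat n ↔ ∀ i j, ∃ z : ℤ, M i j = z := by
  constructor
  · rintro ⟨N, rfl⟩ i j
    exact ⟨N i j, by simp⟩
  · intro h
    choose z hz using h
    refine ⟨Matrix.of z, ?_⟩
    ext i j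
    simp [hz]

lemma isClosed_IntMat : IsClosed (IntMat n : Set (Matrix (Fin n) (Fin n) ℝ)) := by
  have : (IntMat n : Set (Matrix (Fin n) (Fin n) ℝ)) =
      ⋂ i, ⋂ j, (fun M : Matrix (Fin n) (Fin n) ℝ => M i j) ⁻¹' (Set.range ((↑) : ℤ → ℝ)) := by
    ext M
    simp only [SetLike.mem_coe, mem_IntMat_iff, Set.mem_iInter, Set.mem_preimage, Set.mem_range]
    constructor
    · intro h i j; obtain ⟨z, hz⟩ := h i j; exact ⟨z, hz.symm⟩
    · intro h i j; obtain ⟨z, hz⟩ := h i j; exact ⟨z, hz.symm⟩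
  rw [this]
  refine isClosed_iInter fun i => isClosed_iInter fun j => ?_
  exact Int.isClosedEmbedding_coe_real.isClosed_range.preimage (by fun_prop)

lemma trace_IntMat {M : Matrix (Fin n) (Fin n) ℝ} (h : M ∈ IntMat n) : ∃ z : ℤ, M.trace = z := by
  obtain ⟨N, rfl⟩ := h
  exact ⟨N.trace, by simp [Matrix.trace]⟩

lemma coe_mem_IntMat {γ : SLR n} (h : γ ∈ SLZ n) : γ.1 ∈ IntMat n := by
  obtain ⟨δ, rfl⟩ := h
  exact ⟨δ.1, by ext i j; simp⟩

/-- conjugation -/
def cj (g : SLR n) (M : Matrix (Fin n) (Fin n) ℝ) : Matrix (Fin n) (Fin n) ℝ :=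
  (g⁻¹).1 * M * g.1

lemma cj_mul (g h : SLR n) (M : Matrix (Fin n) (Fin n) ℝ) : cj (g * h) M = cj h (cj g M) := by
  simp only [cj, _root_.mul_inv_rev, Matrix.SpecialLinearGroup.coe_mul, Matrix.mul_assoc]

lemma coe_inv_mul (g : SLR n) : (g⁻¹).1 * g.1 = 1 := by
  rw [← Matrix.SpecialLinearGroup.coe_mul, inv_mul_cancel, Matrix.SpecialLinearGroup.coe_one]

lemma coe_mul_inv (g : SLR n) : g.1 * (g⁻¹).1 = 1 := by
  rw [← Matrix.SpecialLinearGroup.coe_mul, mul_inv_cancel, Matrix.SpecialLinearGroup.coe_one]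

lemma cj_mul_cj (g : SLR n) (M N : Matrix (Fin n) (Fin n) ℝ) : cj g M * cj g N = cj g (M * N) := by
  simp only [cj]
  calc (g⁻¹).1 * M * g.1 * ((g⁻¹).1 * N * g.1)
      = (g⁻¹).1 * M * (g.1 * (g⁻¹).1) * N * g.1 := by simp only [Matrix.mul_assoc]
    _ = _ := by rw [coe_mul_inv]; simp only [Matrix.mul_assoc, Matrix.mul_one]

lemma trace_cj (g : SLR n) (M : Matrix (Fin n) (Fin n) ℝ) : (cj g M).trace = M.trace := by
  simp only [cj]
  rw [Matrix.trace_mul_comm, ← Matrix.mul_assoc, coe_mul_inv, Matrix.one_mul]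

lemma cj_mem_of_SLZ {γ : SLR n} (h : γ ∈ SLZ n) {M : Matrix (Fin n) (Fin n) ℝ} (hM : M ∈ IntMat n) :
    cj γ M ∈ IntMat n :=
  (IntMat n).mul_mem ((IntMat n).mul_mem (coe_mem_IntMat ((SLZ n).inv_mem h)) hM) (coe_mem_IntMat h)

/-- The set of lattices `g ℤⁿ` stable under `M`. -/
def Zset (M : Matrix (Fin n) (Fin n) ℝ) : Set (LatticeSpace n) :=
  (fun g : SLR n => (g : LatticeSpace n)) '' {g | cj g M ∈ IntMat n}

lemma mk_mem_Zset (g : SLR n) (M : Matrix (Fin n) (Fin n) ℝ) :
    (g : LatticeSpace n) ∈ Zset M ↔ cj g M ∈ IntMat n := by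
  constructor
  · rintro ⟨g', hg', he⟩
    have : g'⁻¹ * g ∈ SLZ n := QuotientGroup.eq.mp he
    have h2 : g = g' * (g'⁻¹ * g) := by group
    rw [h2, cj_mul]
    exact cj_mem_of_SLZ this hg'
  · intro h; exact ⟨g, h, rfl⟩

lemma continuous_cj (M : Matrix (Fin n) (Fin n) ℝ) : Continuous (fun g : SLR n => cj g M) := by
  unfold cj
  have h1 : Continuous (fun g : SLR n => g.1) := continuous_subtype_val
  have h2 : Continuous (fun g : SLR n => (g⁻¹).1) :=
    continuous_subtype_val.comp continuous_inv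
  exact (h2.matrix_mul continuous_const).matrix_mul h1

lemma isClosed_Zset (M : Matrix (Fin n) (Fin n) ℝ) : IsClosed (Zset M) := by
  rw [← (QuotientGroup.isQuotientMap_mk (SLZ n)).isClosed_preimage]
  have : ((↑) : SLR n → LatticeSpace n) ⁻¹' Zset M = (fun g : SLR n => cj g M) ⁻¹' (IntMat n) := by
    ext g; simp [mk_mem_Zset]
  rw [this]
  exact isClosed_IntMat.preimage (continuous_cj M)

lemma smul_Zset (h : SLR n) (M : Matrix (Fin n) (Fin n) ℝ) : h • Zset M = Zset (cj h⁻¹ M) := by
  ext x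
  induction x using QuotientGroup.induction_on with
  | H g =>
    rw [Set.mem_smul_set_iff_inv_smul_mem]
    have : h⁻¹ • (g : LatticeSpace n) = ((h⁻¹ * g : SLR n) : LatticeSpace n) := rfl
    rw [this, mk_mem_Zset, mk_mem_Zset, cj_mul]

lemma trace_mul_of_mem {M N : Matrix (Fin n) (Fin n) ℝ} {x : LatticeSpace n} (hM : x ∈ Zset M)
    (hN : x ∈ Zset N) : ∃ z : ℤ, (M * N).trace = z := by
  induction x using QuotientGroup.induction_on with
  | H g =>
    rw [mk_mem_Zset] at hM hN
    have := trace_IntMat ((IntMat n).mul_mem hM hN)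
    rwa [cj_mul_cj, trace_cj] at this

lemma trace_key (M : Matrix (Fin n) (Fin n) ℝ) (a b : Fin n) (τ : ℝ) :
    (M * ((1 - single b a τ) * M * (1 + single b a τ))).trace
      = (M * M).trace - τ ^ 2 * (M a b) ^ 2 := by
  set S := single b a τ with hS
  have e1 : (1 - S) * M * (1 + S) = M + M * S - S * M - S * M * S := by
    noncomm_ring
  have e2 : S * M * S = single b a (τ * M a b * τ) := by
    rw [hS, single_mul_mul_single]
  have e3 : (M * (M * S)).trace = (M * (S * M)).trace := by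
    rw [← Matrix.mul_assoc M S M, Matrix.trace_mul_comm (M * S) M]
  rw [e1, e2, Matrix.mul_sub, Matrix.mul_sub, Matrix.mul_add, Matrix.trace_sub, Matrix.trace_sub,
    Matrix.trace_add, e3, Matrix.trace_mul_single]
  simp
  ring

/-- transvections as elements of `SL` -/
def tv (a b : Fin n) (hab : a ≠ b) (t : ℝ) : SLR n :=
  ⟨transvection a b t, det_transvection_of_ne a b hab t⟩

lemma tv_mul (a b : Fin n) (hab : a ≠ b) (s t : ℝ) :
    tv a b hab s * tv a b hab t = tv a b hab (s + t) := by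
  apply Subtype.ext
  exact transvection_mul_transvection_same a b hab s t

lemma tv_inv (a b : Fin n) (hab : a ≠ b) (t : ℝ) : (tv a b hab t)⁻¹ = tv a b hab (-t) := by
  apply inv_eq_of_mul_eq_one_right
  rw [tv_mul]
  apply Subtype.ext
  simp [tv, transvection_zero]

lemma trace_mul_cj_tv (M : Matrix (Fin n) (Fin n) ℝ) (a b : Fin n) (hab : b ≠ a) (τ : ℝ) :
    (M * cj (tv b a hab τ) M).trace = (M * M).trace - τ ^ 2 * (M a b) ^ 2 := by
  rw [← trace_key M a b τ]
  simp only [cj, tv_inv]
  simp only [tv, transvection, single_neg, sub_eq_add_neg]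

lemma disjoint_translates (M : Matrix (Fin n) (Fin n) ℝ) (a b : Fin n) (hab : b ≠ a) (s t : ℝ)
    (h0 : 0 < (s - t) ^ 2 * (M a b) ^ 2) (h1 : (s - t) ^ 2 * (M a b) ^ 2 < 1) :
    Disjoint (tv b a hab s • Zset M) (tv b a hab t • Zset M) := by
  rw [Set.disjoint_left]
  intro x hs ht
  rw [smul_Zset, tv_inv] at hs ht
  obtain ⟨z1, hz1⟩ := trace_mul_of_mem hs hs
  obtain ⟨z2, hz2⟩ := trace_mul_of_mem hs ht
  rw [cj_mul_cj, trace_cj] at hz1
  have e : tv b a hab (-t) = tv b a hab (s - t) * tv b a hab (-s) := by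
    rw [tv_mul]; congr 1; ring
  rw [e, cj_mul, cj_mul_cj, trace_cj, trace_mul_cj_tv, hz1] at hz2
  have h3 : (s - t) ^ 2 * (M a b) ^ 2 = ((z1 - z2 : ℤ) : ℝ) := by
    push_cast; linarith
  rw [h3] at h0 h1
  have h4 : (0 : ℤ) < z1 - z2 := by exact_mod_cast h0
  have h5 : z1 - z2 < (1 : ℤ) := by exact_mod_cast h1
  omega

lemma measure_Zset_eq_zero_of_offdiag [MeasurableSpace (LatticeSpace n)] [BorelSpace (LatticeSpace n)]
    (m : Measure (LatticeSpace n)) [IsFiniteMeasure m] [SMulInvariantMeasure (SLR n) (LatticeSpace n) m]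
    (M : Matrix (Fin n) (Fin n) ℝ) (a b : Fin n) (hab : b ≠ a) (hM : M a b ≠ 0) :
    m (Zset M) = 0 := by
  by_contra hne
  have hpos : 0 < m (Zset M) := pos_iff_ne_zero.mpr hne
  set c : ℝ := |M a b| with hc
  have hcpos : 0 < c := abs_pos.mpr hM
  let t : ℕ → ℝ := fun k => 1 / (c * (k + 2))
  have ht_inj : ∀ j k, j ≠ k → t j ≠ t k := by
    intro j k hjk h
    simp only [t] at h
    have h1 : c * ((j:ℝ) + 2) = c * ((k:ℝ) + 2) := by
      have h' := congrArg (fun x : ℝ => 1 / x) h
      simpa using h'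
    have h2 : (j:ℝ) + 2 = (k:ℝ) + 2 := mul_left_cancel₀ hcpos.ne' h1
    apply hjk
    exact_mod_cast (add_right_cancel h2)
  have ht_bd : ∀ k, 0 < c * t k ∧ c * t k ≤ 1 / 2 := by
    intro k
    have hk : (0:ℝ) < (k:ℝ) + 2 := by positivity
    have : c * t k = 1 / ((k:ℝ) + 2) := by
      simp only [t]; field_simp
    rw [this]
    refine ⟨by positivity, ?_⟩
    rw [div_le_div_iff₀ hk (by norm_num)]
    have : (0:ℝ) ≤ (k:ℝ) := Nat.cast_nonneg k
    linarith
  have hdisj : Pairwise (Function.onFun Disjoint (fun k => tv b a hab (t k) • Zset M)) := by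
    intro j k hjk
    have hsq : (t j - t k) ^ 2 * (M a b) ^ 2 = (c * t j - c * t k) ^ 2 := by
      rw [← sq_abs (M a b), ← hc]; ring
    apply disjoint_translates M a b hab (t j) (t k)
    · rw [hsq]
      have : c * t j - c * t k ≠ 0 := by
        intro h
        have : c * t j = c * t k := by linarith
        exact ht_inj j k hjk (mul_left_cancel₀ hcpos.ne' this)
      positivity
    · rw [hsq]
      have h1 := ht_bd j
      have h2 := ht_bd k
      have h3 : |c * t j - c * t k| < 1 := by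
        rw [abs_lt]; constructor <;> linarith [h1.1, h1.2, h2.1, h2.2]
      have := sq_lt_one_iff_abs_lt_one (c * t j - c * t k)
      exact this.mpr h3
  have hmeas : ∀ k, MeasurableSet (tv b a hab (t k) • Zset M) := by
    intro k; rw [smul_Zset]; exact (isClosed_Zset _).measurableSet
  have hfin := Measure.finite_const_le_meas_of_disjoint_iUnion m hpos hmeas hdisj
    (measure_ne_top _ _)
  have huniv : {k | m (Zset M) ≤ m (tv b a hab (t k) • Zset M)} = Set.univ := by
    ext k; simp [measure_smul]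
  rw [huniv] at hfin
  exact Set.infinite_univ hfin

lemma measure_Zset_diagonal [MeasurableSpace (LatticeSpace n)] [BorelSpace (LatticeSpace n)]
    (m : Measure (LatticeSpace n)) [IsFiniteMeasure m] [SMulInvariantMeasure (SLR n) (LatticeSpace n) m]
    (d : Fin n → ℝ) (a b : Fin n) (hd : d a ≠ d b) :
    m (Zset (Matrix.diagonal d)) = 0 := by
  have hab : a ≠ b := fun h => hd (by rw [h])
  rw [← measure_smul m (tv a b hab 1) (Zset (Matrix.diagonal d)), smul_Zset]
  apply measure_Zset_eq_zero_of_offdiag m _ a b hab.symm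
  simp only [cj, tv_inv]
  simp only [tv]
  rw [mul_transvection_apply_same, transvection_mul_apply_same, transvection_mul_apply_same]
  simp [Matrix.diagonal_apply_ne _ hab, Matrix.diagonal_apply_ne _ hab.symm]
  intro h
  apply hd
  linarith

/-! ### From stable lattices to `Zset` -/

lemma mem_Zset_of_stable (g : SLR n) (M : Matrix (Fin n) (Fin n) ℝ)
    (h : ∀ v ∈ latticeOf g, M.mulVec v ∈ latticeOf g) : (g : LatticeSpace n) ∈ Zset M := by
  rw [mk_mem_Zset, mem_IntMat_iff]
  have hcol : ∀ k : Fin n, ∃ z : Fin n → ℤ,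
      g.1.mulVec (fun j => (z j : ℝ)) = M.mulVec (g.1.mulVec (Pi.single k 1)) := by
    intro k
    have h1 : g.1.mulVec (Pi.single k 1) ∈ latticeOf g := by
      refine ⟨Pi.single k 1, ?_⟩
      have e : (fun j => (((Pi.single k 1 : Fin n → ℤ) j : ℤ) : ℝ)) = Pi.single k 1 := by
        ext j
        simp only [Pi.single_apply]
        split_ifs <;> simp
      simp only [e]
    exact h _ h1
  choose z hz using hcol
  intro i k
  refine ⟨z k i, ?_⟩
  have h2 : (cj g M).mulVec (Pi.single k 1) = fun j => (z k j : ℝ) := by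
    simp only [cj]
    rw [← Matrix.mulVec_mulVec, ← Matrix.mulVec_mulVec, ← hz k, Matrix.mulVec_mulVec, coe_inv_mul,
      Matrix.one_mulVec]
  have h3 := congrFun h2 i
  simpa using h3

/-! ### The closed null set attached to a polynomial -/

/-- non-scalar diagonal vectors with entries among the real roots of `P` -/
def diagSet (n : ℕ) (P : Polynomial ℤ) : Set (Fin n → ℝ) :=
  {d | (∀ j, d j ∈ P.rootSet ℝ) ∧ ∃ a b, d a ≠ d b}

lemma diagSet_finite (n : ℕ) (P : Polynomial ℤ) : (diagSet n P).Finite := by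
  have h : {d : Fin n → ℝ | ∀ j, d j ∈ P.rootSet ℝ}.Finite :=
    Set.Finite.pi' (fun _ => P.rootSet_finite ℝ)
  exact h.subset fun d hd => hd.1

/-- the closed null set containing all packets of orders with an irrational root of `P` -/
def badSet (n : ℕ) (P : Polynomial ℤ) : Set (LatticeSpace n) :=
  ⋃ d ∈ diagSet n P, Zset (Matrix.diagonal d)

lemma isClosed_badSet (n : ℕ) (P : Polynomial ℤ) : IsClosed (badSet n P) :=
  (diagSet_finite n P).isClosed_biUnion fun _ _ => isClosed_Zset _

lemma measure_badSet [MeasurableSpace (LatticeSpace n)] [BorelSpace (LatticeSpace n)]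
    (m : Measure (LatticeSpace n)) [IsFiniteMeasure m]
    [SMulInvariantMeasure (SLR n) (LatticeSpace n) m] (P : Polynomial ℤ) :
    m (badSet n P) = 0 := by
  rw [badSet, measure_biUnion_null_iff (diagSet_finite n P).countable]
  rintro d ⟨-, a, b, hab⟩
  exact measure_Zset_diagonal m d a b hab

/-! ### Number fields -/

lemma exists_ne_embedding {K : Type} [Field K] [NumberField K] [IsTotallyReal K]
    (σ : Fin n ≃ (K →+* ℝ)) (θ : K) (hθ : θ ∉ (algebraMap ℚ K).range) :
    ∃ a b, σ a θ ≠ σ b θ := by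
  by_contra hcon
  push Not at hcon
  apply hθ
  have hall : ∀ φ ψ : K →+* ℂ, φ θ = ψ θ := by
    intro φ ψ
    have hφ := IsTotallyReal.complexEmbedding_isReal φ
    have hψ := IsTotallyReal.complexEmbedding_isReal ψ
    rw [← hφ.coe_embedding_apply, ← hψ.coe_embedding_apply]
    have := hcon (σ.symm hφ.embedding) (σ.symm hψ.embedding)
    simp only [Equiv.apply_symm_apply] at this
    rw [this]
  have hint : IsIntegral ℚ θ := Algebra.IsIntegral.isIntegral θ
  have hsub : ((minpoly ℚ θ).rootSet ℂ).Subsingleton := by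
    rw [← NumberField.Embeddings.range_eval_eq_rootSet_minpoly K ℂ θ]
    rintro _ ⟨φ, rfl⟩ _ ⟨ψ, rfl⟩
    exact hall φ ψ
  have hcard : Fintype.card ((minpoly ℚ θ).rootSet ℂ) = (minpoly ℚ θ).natDegree :=
    Polynomial.card_rootSet_eq_natDegree (minpoly.irreducible hint).separable
      (IsAlgClosed.splits _)
  have hle : (minpoly ℚ θ).natDegree ≤ 1 := by
    rw [← hcard]
    have := hsub.coe_sort
    exact Fintype.card_le_one_iff_subsingleton.mpr inferInstance
  have hpos : 0 < (minpoly ℚ θ).natDegree := minpoly.natDegree_pos hint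
  have hdeg : (minpoly ℚ θ).degree = 1 := by
    rw [Polynomial.degree_eq_natDegree (minpoly.ne_zero hint)]
    have : (minpoly ℚ θ).natDegree = 1 := by omega
    rw [this]; rfl
  exact minpoly.mem_range_of_degree_eq_one ℚ θ hdeg

lemma packetSet_subset_badSet {K : Type} [Field K] [NumberField K] [IsTotallyReal K]
    (O : Subring K) (σ : Fin n ≃ (K →+* ℝ)) (P : Polynomial ℤ) (hP : P ≠ 0) (θ : K) (hθO : θ ∈ O)
    (hθ : θ ∉ (algebraMap ℚ K).range) (hroot : Polynomial.aeval θ P = 0) :
    packetSet O σ ⊆ badSet n P := by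
  rintro x ⟨I, c, w, u, g, hI, -, -, -, -, -, rfl, hg⟩
  have hd : (fun j => σ j θ) ∈ diagSet n P := by
    refine ⟨fun j => ?_, exists_ne_embedding σ θ hθ⟩
    rw [Polynomial.mem_rootSet]
    refine ⟨hP, ?_⟩
    have := Polynomial.aeval_algHom_apply (σ j).toIntAlgHom θ P
    rw [hroot, map_zero] at this
    exact this
  refine Set.mem_biUnion hd ?_
  apply mem_Zset_of_stable
  intro v hv
  rw [hg] at hv ⊢
  obtain ⟨α, hα, hvα⟩ := hv
  refine ⟨θ * α, hI.mul_mem θ hθO α hα, fun j => ?_⟩
  rw [Matrix.mulVec_diagonal, hvα j, map_mul]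
  ring

/-! ### The test function -/

lemma exists_test_function {Y : Type} [TopologicalSpace Y] [T2Space Y] [LocallyCompactSpace Y]
    [SecondCountableTopology Y] [MeasurableSpace Y] [BorelSpace Y]
    (m : Measure Y) [IsProbabilityMeasure m] (Z : Set Y) (hZ : IsClosed Z) (hm : m Z = 0) :
    ∃ f : Y → ℝ, Continuous f ∧ HasCompactSupport f ∧ (∀ x ∈ Z, f x = 0) ∧ 0 < ∫ x, f x ∂m := by
  have hU : IsOpen Zᶜ := hZ.isOpen_compl
  have hmU : m Zᶜ = 1 := by
    rw [measure_compl hZ.measurableSet (measure_ne_top _ _), hm, measure_univ, tsub_zero]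
  obtain ⟨Q, hQU, hQ, hQm⟩ := hU.exists_lt_isCompact (μ := m) (r := 0) (by rw [hmU]; exact one_pos)
  have hdisj : Disjoint Q Z := Set.disjoint_left.mpr fun x hx hxZ => hQU hx hxZ
  obtain ⟨f, hf1, hf0, hfc, hf01⟩ := exists_continuous_one_zero_of_isCompact hQ hZ hdisj
  refine ⟨f, f.continuous, hfc, fun x hx => hf0 hx, ?_⟩
  have hint : Integrable f m := f.continuous.integrable_of_hasCompactSupport hfc
  have hnn : 0 ≤ᵐ[m] f := Eventually.of_forall fun x => (hf01 x).1
  rw [integral_pos_iff_support_of_nonneg_ae hnn hint]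
  refine lt_of_lt_of_le hQm (measure_mono ?_)
  intro x hx
  rw [Function.mem_support, hf1 hx]
  exact one_ne_zero

/-- **Subfield obstruction.** If measures carried by the packets converge weakly to an invariant
probability measure, then every fixed nonzero integer polynomial eventually has no irrational root
in the orders. -/
theorem eventually_no_root (n : ℕ)
    (K : ℕ → Type) [∀ i, Field (K i)] [∀ i, NumberField (K i)] [∀ i, IsTotallyReal (K i)]
    (σ : ∀ i, Fin n ≃ (K i →+* ℝ)) (O : ∀ i, Subring (K i))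
    [MeasurableSpace (LatticeSpace n)] [BorelSpace (LatticeSpace n)]
    (m : Measure (LatticeSpace n)) [IsProbabilityMeasure m]
    [SMulInvariantMeasure (SLR n) (LatticeSpace n) m]
    (μ : ℕ → Measure (LatticeSpace n))
    (hμ : ∀ i, ∀ᵐ x ∂(μ i), x ∈ packetSet (O i) (σ i))
    (hconv : ConvergesWeakly μ m) (P : Polynomial ℤ) (hP : P ≠ 0) :
    ∀ᶠ i in atTop, ∀ θ ∈ O i, Polynomial.aeval θ P = 0 → θ ∈ (algebraMap ℚ (K i)).range := by
  obtain ⟨f, hfc, hfs, hf0, hfpos⟩ :=
    exists_test_function m (badSet n P) (isClosed_badSet n P) (measure_badSet m P)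
  have hev := (hconv.1 f hfc hfs).eventually (lt_mem_nhds hfpos)
  filter_upwards [hev] with i hi θ hθO hroot
  by_contra hθ
  have hsub := packetSet_subset_badSet (O i) (σ i) P hP θ hθO hθ hroot
  have hzero : ∫ x, f x ∂(μ i) = 0 := by
    apply integral_eq_zero_of_ae
    filter_upwards [hμ i] with x hx
    exact hf0 x (hsub hx)
  rw [hzero] at hi
  exact lt_irrefl _ hi

end Vale.Agent.Lib.P007
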