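import Vale.Agent.Lib.P007.Defs

/-!
# P007: the orders `ℤ[α] + f O_K` and their indices
-/

open NumberField Filter

namespace Vale.Agent.Lib.P007

variable {K : Type} [Field K] [NumberField K]

/-- the maximal order as a subring -/
abbrev maxOrder (K : Type) [Field K] : Subring K := (integralClosure ℤ K).toSubring

lemma mem_maxOrder {x : K} : x ∈ maxOrder K ↔ IsIntegral ℤ x := Iff.rfl

/-- the ring `ℤ[α] + f O_K` -/
def ordS (α : K) (hα : IsIntegral ℤ α) (f : ℕ) : Subring K where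
  carrier := {x | ∃ r ∈ Algebra.adjoin ℤ {α}, ∃ y, IsIntegral ℤ y ∧ x = r + (f : K) * y}
  zero_mem' := ⟨0, zero_mem _, 0, isIntegral_zero, by simp⟩
  one_mem' := ⟨1, one_mem _, 0, isIntegral_zero, by simp⟩
  add_mem' := by
    rintro _ _ ⟨r, hr, y, hy, rfl⟩ ⟨r', hr', y', hy', rfl⟩
    exact ⟨r + r', add_mem hr hr', y + y', hy.add hy', by ring⟩
  neg_mem' := by
    rintro _ ⟨r, hr, y, hy, rfl⟩
    exact ⟨-r, neg_mem hr, -y, hy.neg, by ring⟩
  mul_mem' := by
    rintro _ _ ⟨r, hr, y, hy, rfl⟩ ⟨r', hr', y', hy', rfl⟩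
    have hle : Algebra.adjoin ℤ {α} ≤ integralClosure ℤ K :=
      Algebra.adjoin_le (Set.singleton_subset_iff.mpr hα)
    have h1 : IsIntegral ℤ r := hle hr
    have h2 : IsIntegral ℤ r' := hle hr'
    have h3 : IsIntegral ℤ (f : K) := isIntegral_natCast f
    exact ⟨r * r', mul_mem hr hr', r * y' + r' * y + f * y * y',
      ((h1.mul hy').add (h2.mul hy)).add ((h3.mul hy).mul hy'), by ring⟩

lemma mem_ordS {α : K} {hα : IsIntegral ℤ α} {f : ℕ} {x : K} : x ∈ ordS α hα f ↔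
    ∃ r ∈ Algebra.adjoin ℤ {α}, ∃ y, IsIntegral ℤ y ∧ x = r + (f : K) * y := Iff.rfl

lemma ordS_le (α : K) (hα : IsIntegral ℤ α) (f : ℕ) : ordS α hα f ≤ maxOrder K := by
  intro x hx
  obtain ⟨r, hr, y, hy, rfl⟩ := mem_ordS.mp hx
  have hle : Algebra.adjoin ℤ {α} ≤ integralClosure ℤ K :=
    Algebra.adjoin_le (Set.singleton_subset_iff.mpr hα)
  exact (hle hr : IsIntegral ℤ r).add ((isIntegral_natCast f).mul hy)

lemma α_mem_ordS (α : K) (hα : IsIntegral ℤ α) (f : ℕ) : α ∈ ordS α hα f :=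
  mem_ordS.mpr ⟨α, Algebra.self_mem_adjoin_singleton ℤ α, 0, isIntegral_zero, by simp⟩

lemma isOrder_ordS (α : K) (hα : IsIntegral ℤ α) (f : ℕ) (hf : f ≠ 0) : IsOrder (ordS α hα f) where
  integral := fun x hx => ordS_le α hα f hx
  span := by
    rw [eq_top_iff]
    intro x _
    have halg : IsAlgebraic ℤ x :=
      (IsFractionRing.isAlgebraic_iff ℤ ℚ K).mpr (Algebra.IsAlgebraic.isAlgebraic x)
    obtain ⟨d, hd, hint⟩ := halg.exists_integral_multiple
    have hmem : (f : K) * (d • x) ∈ ordS α hα f := mem_ordS.mpr ⟨0, zero_mem _, d • x, hint, by simp⟩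
    have hfd : ((f : ℚ) * d) ≠ 0 := mul_ne_zero (by exact_mod_cast hf) (by exact_mod_cast hd)
    have hx : x = ((f : ℚ) * d)⁻¹ • ((f : K) * (d • x)) := by
      rw [Algebra.smul_def, zsmul_eq_mul, map_inv₀, map_mul, map_natCast, map_intCast]
      have h1 : (f : K) ≠ 0 := by exact_mod_cast hf
      have h2 : (d : K) ≠ 0 := by exact_mod_cast hd
      field_simp
    rw [hx]
    exact Submodule.smul_mem _ _ (Submodule.subset_span hmem)

lemma maxOrder_fg : (maxOrder K).toAddSubgroup.FG := by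
  have h1 : Module.Finite ℤ (integralClosure ℤ K).toSubmodule :=
    inferInstanceAs (Module.Finite ℤ (𝓞 K))
  have h2 := Module.Finite.iff_fg.mp h1
  exact (Submodule.fg_iff_addSubgroup_fg _).mp h2

lemma relIndex_ne_zero (α : K) (hα : IsIntegral ℤ α) (f : ℕ) (hf : f ≠ 0) :
    (ordS α hα f).toAddSubgroup.relIndex (maxOrder K).toAddSubgroup ≠ 0 := by
  set A := (maxOrder K).toAddSubgroup
  set B := (ordS α hα f).toAddSubgroup
  have : AddGroup.FG A := (AddGroup.fg_iff_addSubgroup_fg A).mpr maxOrder_fg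
  have : Module.Finite ℤ (A ⧸ B.addSubgroupOf A) := Module.Finite.iff_addGroup_fg.mpr inferInstance
  have htors : Module.IsTorsion ℤ (A ⧸ B.addSubgroupOf A) := by
    intro x
    induction x using QuotientAddGroup.induction_on with
    | H y =>
      refine ⟨⟨(f : ℤ), by simpa using hf⟩, ?_⟩
      show (f : ℤ) • (y : A ⧸ B.addSubgroupOf A) = 0
      rw [← QuotientAddGroup.mk_zsmul, QuotientAddGroup.eq_zero_iff, AddSubgroup.mem_addSubgroupOf]
      show (((f : ℤ) • y : A) : K) ∈ ordS α hα f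
      exact mem_ordS.mpr ⟨0, zero_mem _, y.1, y.2, by simp⟩
  have := Module.finite_of_fg_torsion _ htors
  exact AddSubgroup.index_ne_zero_of_finite

theorem tendsto_relIndex (α : K) (hα : IsIntegral ℤ α)
    (htop : IntermediateField.adjoin ℚ {α} ≠ ⊤) :
    Tendsto (fun i : ℕ => (ordS α hα (i + 1)).toAddSubgroup.relIndex (maxOrder K).toAddSubgroup)
      atTop atTop := by
  set p : Submodule ℚ K := (IntermediateField.adjoin ℚ {α}).toSubalgebra.toSubmodule with hp
  have hpne : ∃ v, v ∉ p := by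
    by_contra hcon
    push Not at hcon
    apply htop
    rw [eq_top_iff]
    intro x _
    exact hcon x
  obtain ⟨v, hv⟩ := hpne
  obtain ⟨lam, hlv, hker⟩ := Submodule.exists_le_ker_of_notMem hv
  obtain ⟨γ, hint, hlγ⟩ : ∃ γ : K, IsIntegral ℤ γ ∧ lam γ ≠ 0 := by
    have halg : IsAlgebraic ℤ v :=
      (IsFractionRing.isAlgebraic_iff ℤ ℚ K).mpr (Algebra.IsAlgebraic.isAlgebraic v)
    obtain ⟨d, hd, hint⟩ := halg.exists_integral_multiple
    refine ⟨d • v, hint, ?_⟩
    rw [map_zsmul, zsmul_eq_mul]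
    exact mul_ne_zero (by exact_mod_cast hd) hlv
  -- common denominator
  obtain ⟨S, hS⟩ := maxOrder_fg (K := K)
  classical
  obtain ⟨D, hD⟩ := IsLocalization.exist_integer_multiples_of_finset (nonZeroDivisors ℤ)
    (S.image lam)
  have hD0 : (D : ℤ) ≠ 0 := nonZeroDivisors.coe_ne_zero D
  have hall : ∀ x ∈ (maxOrder K).toAddSubgroup, ∃ z : ℤ, ((D : ℤ) : ℚ) * lam x = z := by
    intro x hx
    rw [← hS] at hx
    induction hx using AddSubgroup.closure_induction with
    | mem s hs =>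
      obtain ⟨z, hz⟩ := hD (lam s) (Finset.mem_image_of_mem _ hs)
      refine ⟨z, ?_⟩
      rw [← zsmul_eq_mul, ← hz]; simp
    | zero => exact ⟨0, by simp⟩
    | add x y _ _ hx hy =>
      obtain ⟨z1, h1⟩ := hx
      obtain ⟨z2, h2⟩ := hy
      exact ⟨z1 + z2, by rw [map_add, mul_add, h1, h2]; push_cast; ring⟩
    | neg x _ hx =>
      obtain ⟨z1, h1⟩ := hx
      exact ⟨-z1, by rw [map_neg, mul_neg, h1]; push_cast; ring⟩
  obtain ⟨zγ, hzγ⟩ := hall γ hint
  have hzγ0 : zγ ≠ 0 := by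
    intro h0
    rw [h0] at hzγ
    have : ((D : ℤ) : ℚ) ≠ 0 := by exact_mod_cast hD0
    exact (mul_ne_zero this hlγ) (by simpa using hzγ)
  rw [tendsto_atTop]
  intro b
  filter_upwards [eventually_ge_atTop (b * zγ.natAbs)] with i hi
  set N := (ordS α hα (i + 1)).toAddSubgroup.relIndex (maxOrder K).toAddSubgroup with hN
  have hN0 : N ≠ 0 := relIndex_ne_zero α hα (i + 1) (by omega)
  have hmem : N • γ ∈ (ordS α hα (i + 1)).toAddSubgroup :=
    AddSubgroup.nsmul_relIndex_mem _ (show γ ∈ (maxOrder K).toAddSubgroup from hint)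
  obtain ⟨r, hr, y, hy, hxy⟩ := mem_ordS.mp (show N • γ ∈ ordS α hα (i + 1) from hmem)
  have hr0 : lam r = 0 := by
    have : r ∈ p := by
      have hle : Algebra.adjoin ℤ {α} ≤ (IntermediateField.adjoin ℚ {α}).toSubalgebra.restrictScalars ℤ :=
        Algebra.adjoin_le (by
          simpa using IntermediateField.mem_adjoin_simple_self ℚ α)
      exact hle hr
    exact hker this
  obtain ⟨zy, hzy⟩ := hall y hy
  have heq : (N : ℤ) * zγ = ((i : ℤ) + 1) * zy := by
    have h1 := congrArg lam hxy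
    have hcast : ((i + 1 : ℕ) : K) * y = ((i + 1 : ℕ) : ℚ) • y := by
      rw [Algebra.smul_def, map_natCast]
    rw [map_nsmul, map_add, hr0, zero_add, hcast, map_smul, smul_eq_mul, nsmul_eq_mul] at h1
    have : ((N : ℤ) * zγ : ℚ) = (((i : ℤ) + 1) * zy : ℚ) := by
      rw [← hzγ, ← hzy]
      push_cast at h1 ⊢
      linear_combination ((D : ℤ) : ℚ) * h1
    exact_mod_cast this
  have hzy0 : zy ≠ 0 := by
    intro h0
    rw [h0, mul_zero] at heq
    exact (mul_ne_zero (by exact_mod_cast hN0) hzγ0) heq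
  have habs : N * zγ.natAbs = (i + 1) * zy.natAbs := by
    have := congrArg Int.natAbs heq
    rw [Int.natAbs_mul, Int.natAbs_mul, Int.natAbs_natCast,
      show ((i : ℤ) + 1) = ((i + 1 : ℕ) : ℤ) by push_cast; ring, Int.natAbs_natCast] at this
    exact this
  have h1 : 1 ≤ zy.natAbs := Int.natAbs_pos.mpr hzy0
  have h2 : 0 < zγ.natAbs := Int.natAbs_pos.mpr hzγ0
  by_contra hlt
  rw [not_le] at hlt
  have h3 : N * zγ.natAbs < b * zγ.natAbs := Nat.mul_lt_mul_of_pos_right hlt h2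
  nlinarith

end Vale.Agent.Lib.P007
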