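import Vale.Agent.Lib.P007.Obstruction

/-!
# P007: discriminants of subfields must tend to infinity
-/

open MeasureTheory Filter NumberField

namespace Vale.Agent.Lib.P007

/-- a number field inside `ℂ` different from `ℚ` contains an irrational algebraic integer -/
lemma exists_irrational_integer (E : IntermediateField ℚ ℂ) [FiniteDimensional ℚ E] (hE : E ≠ ⊥) :
    ∃ θ ∈ E, IsIntegral ℤ θ ∧ θ ∉ (algebraMap ℚ ℂ).range := by
  have hlt : (⊥ : IntermediateField ℚ ℂ) < E := bot_lt_iff_ne_bot.mpr hE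
  obtain ⟨y, hyE, hy⟩ := SetLike.exists_of_lt hlt
  have halgQ : IsAlgebraic ℚ y := by
    have : IsAlgebraic ℚ (⟨y, hyE⟩ : E) := Algebra.IsAlgebraic.isAlgebraic _
    exact (isAlgebraic_algebraMap_iff (algebraMap E ℂ).injective).mpr this
  have halg : IsAlgebraic ℤ y := (IsFractionRing.isAlgebraic_iff ℤ ℚ ℂ).mpr halgQ
  obtain ⟨d, hd, hint⟩ := halg.exists_integral_multiple
  refine ⟨d • y, ?_, hint, ?_⟩
  · rw [zsmul_eq_mul]
    exact mul_mem (intCast_mem E d) hyE
  · rintro ⟨r, hr⟩
    apply hy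
    rw [IntermediateField.mem_bot]
    refine ⟨r / d, ?_⟩
    have hd' : (d : ℂ) ≠ 0 := by exact_mod_cast hd
    rw [zsmul_eq_mul] at hr
    rw [map_div₀, hr, map_intCast]
    field_simp

theorem eventually_subfield_discr (n : ℕ)
    (K : ℕ → Type) [∀ i, Field (K i)] [∀ i, NumberField (K i)] [∀ i, IsTotallyReal (K i)]
    (σ : ∀ i, Fin n ≃ (K i →+* ℝ)) (O : ∀ i, Subring (K i))
    [MeasurableSpace (LatticeSpace n)] [BorelSpace (LatticeSpace n)]
    (m : Measure (LatticeSpace n)) [IsProbabilityMeasure m]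
    [SMulInvariantMeasure (SLR n) (LatticeSpace n) m]
    (μ : ℕ → Measure (LatticeSpace n))
    (hμ : ∀ i, ∀ᵐ x ∂(μ i), x ∈ packetSet (O i) (σ i))
    (hconv : ConvergesWeakly μ m) (B : ℕ) :
    ∀ᶠ i in atTop, ∀ F : IntermediateField ℚ (K i), F ≠ ⊥ →
      (∀ x ∈ F, IsIntegral ℤ x → x ∈ O i) → (B : ℤ) < |discr F| := by
  have hfin := NumberField.finite_of_discr_bdd ℂ B
  -- for each fixed field `E ⊆ ℂ`, eventually no admissible subfield is isomorphic to `E`
  have key : ∀ E ∈ {L : { F : IntermediateField ℚ ℂ // FiniteDimensional ℚ F} |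
      haveI : NumberField L := @NumberField.mk _ _ inferInstance L.prop
      |discr L| ≤ B}, ∀ᶠ i in atTop, ∀ F : IntermediateField ℚ (K i), F ≠ ⊥ →
      (∀ x ∈ F, IsIntegral ℤ x → x ∈ O i) → ∀ φ : K i →ₐ[ℚ] ℂ, F.map φ ≠ E.1 := by
    intro E _
    by_cases hE : E.1 = ⊥
    · refine Eventually.of_forall fun i F hF _ φ h => hF ?_
      rw [hE] at h
      rw [eq_bot_iff]
      intro x hx
      have : φ x ∈ F.map φ := ⟨x, hx, rfl⟩
      rw [h, IntermediateField.mem_bot] at this
      obtain ⟨r, hr⟩ := this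
      rw [IntermediateField.mem_bot]
      refine ⟨r, φ.injective ?_⟩
      show φ (algebraMap ℚ (K i) r) = φ x
      rw [← hr, AlgHom.commutes]
    · haveI := E.2
      obtain ⟨θ, hθE, hθint, hθirr⟩ := exists_irrational_integer E.1 hE
      have hP : minpoly ℤ θ ≠ 0 := minpoly.ne_zero hθint
      filter_upwards [eventually_no_root n K σ O m μ hμ hconv (minpoly ℤ θ) hP] with i hi
      intro F _ hFO φ h
      rw [← h] at hθE
      obtain ⟨x, hxF, hx⟩ := hθE
      have hx' : φ x = θ := hx
      have hxint : IsIntegral ℤ x := by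
        have : IsIntegral ℤ (φ x) := by rw [hx']; exact hθint
        exact (isIntegral_algHom_iff (φ.restrictScalars ℤ) φ.injective).mp this
      have hroot : Polynomial.aeval x (minpoly ℤ θ) = 0 := by
        apply φ.injective
        have := Polynomial.aeval_algHom_apply (φ.restrictScalars ℤ) x (minpoly ℤ θ)
        rw [map_zero]
        have h2 : (φ.restrictScalars ℤ) x = θ := hx'
        rw [h2, minpoly.aeval] at this
        exact this.symm
      obtain ⟨r, hr⟩ := hi x (hFO x hxF hxint) hroot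
      apply hθirr
      refine ⟨r, ?_⟩
      rw [← hx', ← hr, AlgHom.commutes]
  have hall := (Filter.eventually_all_finite hfin).mpr key
  filter_upwards [hall] with i hi F hF hFO
  by_contra hlt
  rw [not_lt] at hlt
  obtain ⟨φ0⟩ : Nonempty (K i →+* ℂ) := inferInstance
  let φ : K i →ₐ[ℚ] ℂ := φ0.toRatAlgHom
  let e : F ≃ₐ[ℚ] F.map φ := IntermediateField.equivMap F φ
  haveI : FiniteDimensional ℚ (F.map φ) := e.toLinearEquiv.finiteDimensional
  refine hi ⟨F.map φ, inferInstance⟩ ?_ F hF hFO φ rfl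
  letI : NumberField (F.map φ) := @NumberField.mk _ _ inferInstance inferInstance
  have h := discr_eq_discr_of_algEquiv (K := F) (L := F.map φ) e
  show |discr (F.map φ)| ≤ B
  rw [← h]
  exact hlt

end Vale.Agent.Lib.P007
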